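import Mathlib

/-! P065: k-edges of point sets that are nearly in convex position. -/

open Finset

namespace Vale.Agent.P065

/-- twice the signed area of the triangle `a b c` (positive when counterclockwise) -/
def orient (a b c : ℝ × ℝ) : ℝ := (b.1 - a.1) * (c.2 - a.2) - (b.2 - a.2) * (c.1 - a.1)

theorem orient_swap (a b c : ℝ × ℝ) : orient a c b = - orient a b c := by
  unfold orient; ring

theorem orient_swap' (a b c : ℝ × ℝ) : orient b a c = - orient a b c := by
  unfold orient; ring

theorem orient_rot (a b c : ℝ × ℝ) : orient b c a = orient a b c := by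
  unfold orient; ring

theorem orient_left (a b : ℝ × ℝ) : orient a b a = 0 := by
  unfold orient; ring

theorem orient_right (a b : ℝ × ℝ) : orient a b b = 0 := by
  unfold orient; ring

/-- the number of points of the family on the right of the directed line from `P p` to `P q` -/
noncomputable def right {ι : Type} [Fintype ι] (P : ι → ℝ × ℝ) (p q : ι) : ℕ :=
  (univ.filter (fun r => orient (P p) (P q) (P r) < 0)).card

theorem count_lt {m : ℕ} (c : Fin m → ℝ × ℝ)
    (hc : ∀ i j k, i < j → j < k → 0 < orient (c i) (c j) (c k)) {i j : Fin m} (hij : i < j) :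
    (univ.filter (fun k => orient (c i) (c j) (c k) < 0)).card = (j : ℕ) - i - 1 := by
  have h1 : univ.filter (fun k => orient (c i) (c j) (c k) < 0) = Finset.Ioo i j := by
    ext k
    simp only [Finset.mem_filter, Finset.mem_univ, true_and, Finset.mem_Ioo]
    constructor
    · intro h
      rcases lt_trichotomy k i with hk | hk | hk
      · have h2 := hc k i j hk hij
        rw [← orient_rot] at h2
        linarith
      · rw [hk, orient_left] at h; exact absurd h (lt_irrefl _)
      · rcases lt_trichotomy k j with hk2 | hk2 | hk2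
        · exact ⟨hk, hk2⟩
        · rw [hk2, orient_right] at h; exact absurd h (lt_irrefl _)
        · have h2 := hc i j k hij hk2
          linarith
    · rintro ⟨h2, h3⟩
      have h4 := hc i k j h2 h3
      rw [orient_swap] at h4
      linarith
  rw [h1, Fin.card_Ioo]

theorem count_gt {m : ℕ} (c : Fin m → ℝ × ℝ)
    (hc : ∀ i j k, i < j → j < k → 0 < orient (c i) (c j) (c k)) {i j : Fin m} (hji : j < i) :
    (univ.filter (fun k => orient (c i) (c j) (c k) < 0)).card = m - ((i : ℕ) + 1 - j) := by
  have h1 : univ.filter (fun k => orient (c i) (c j) (c k) < 0) = (Finset.Icc j i)ᶜ := by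
    ext k
    simp only [Finset.mem_filter, Finset.mem_univ, true_and, Finset.mem_compl, Finset.mem_Icc,
      not_and_or, not_le]
    rw [orient_swap' (c j) (c i) (c k)]
    constructor
    · intro h
      by_contra hcon
      push Not at hcon
      obtain ⟨h2, h3⟩ := hcon
      rcases eq_or_lt_of_le h2 with h4 | h4
      · rw [← h4, orient_left] at h; simp at h
      · rcases eq_or_lt_of_le h3 with h5 | h5
        · rw [h5, orient_right] at h; simp at h
        · have h6 := hc j k i h4 h5
          rw [orient_swap] at h6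
          linarith
    · rintro (h2 | h2)
      · have h3 := hc k j i h2 hji
        rw [← orient_rot] at h3
        linarith
      · have h3 := hc j i k hji h2
        linarith
  rw [h1, Finset.card_compl, Fin.card_Icc, Fintype.card_fin]

theorem count_inj {m : ℕ} (c : Fin m → ℝ × ℝ)
    (hc : ∀ i j k, i < j → j < k → 0 < orient (c i) (c j) (c k)) (i : Fin m) :
    Set.InjOn (fun j => (univ.filter (fun k => orient (c i) (c j) (c k) < 0)).card)
      {j | i ≠ j} := by
  intro j hj j' hj' h
  simp only at h
  have hj1 := j.isLt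
  have hj2 := j'.isLt
  have hi1 := i.isLt
  apply Fin.ext
  rcases lt_or_gt_of_ne hj with h1 | h1 <;> rcases lt_or_gt_of_ne hj' with h2 | h2
  · rw [count_lt c hc h1, count_lt c hc h2] at h
    rw [Fin.lt_def] at h1 h2
    omega
  · rw [count_lt c hc h1, count_gt c hc h2] at h
    rw [Fin.lt_def] at h1 h2
    omega
  · rw [count_gt c hc h1, count_lt c hc h2] at h
    rw [Fin.lt_def] at h1 h2
    omega
  · rw [count_gt c hc h1, count_gt c hc h2] at h
    rw [Fin.lt_def] at h1 h2
    omega

theorem right_split {m t : ℕ} (P : Fin m ⊕ Fin t → ℝ × ℝ) (p q : Fin m ⊕ Fin t) :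
    right P p q = (univ.filter (fun k : Fin m => orient (P p) (P q) (P (Sum.inl k)) < 0)).card +
      (univ.filter (fun k : Fin t => orient (P p) (P q) (P (Sum.inr k)) < 0)).card := by
  unfold right
  simp only [Finset.card_filter]
  rw [Fintype.sum_sum_type]

theorem row {m t : ℕ} (P : Fin m ⊕ Fin t → ℝ × ℝ)
    (hc : ∀ i j k : Fin m, i < j → j < k →
      0 < orient (P (Sum.inl i)) (P (Sum.inl j)) (P (Sum.inl k))) (a : ℕ) (i : Fin m) :
    (univ.filter (fun j : Fin m => i ≠ j ∧ right P (Sum.inl i) (Sum.inl j) = a)).card ≤ t + 1 := by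
  have h1 : (univ.filter (fun j : Fin m => i ≠ j ∧ right P (Sum.inl i) (Sum.inl j) = a)).card ≤
      (Finset.Icc (a - t) a).card := by
    apply Finset.card_le_card_of_injOn (fun j => (univ.filter (fun k : Fin m =>
      orient (P (Sum.inl i)) (P (Sum.inl j)) (P (Sum.inl k)) < 0)).card)
    · intro j hj
      simp only [Finset.coe_filter, Finset.mem_univ, true_and, Set.mem_ofPred_eq] at hj
      have h2 := hj.2
      rw [right_split] at h2
      have h3 : (univ.filter (fun k : Fin t =>
          orient (P (Sum.inl i)) (P (Sum.inl j)) (P (Sum.inr k)) < 0)).card ≤ t := by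
        refine (Finset.card_filter_le _ _).trans ?_
        simp
      simp only [Finset.coe_Icc, Set.mem_Icc]
      omega
    · intro j hj j' hj' h
      simp only [Finset.coe_filter, Finset.mem_univ, true_and, Set.mem_ofPred_eq] at hj hj'
      exact count_inj (fun k => P (Sum.inl k)) hc i hj.1 hj'.1 h
  refine h1.trans ?_
  rw [Nat.card_Icc]
  omega

/-- at most `(3 t + 1) n` directed edges with exactly `a` points on the right -/
theorem main {m t : ℕ} (P : Fin m ⊕ Fin t → ℝ × ℝ)
    (hc : ∀ i j k : Fin m, i < j → j < k →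
      0 < orient (P (Sum.inl i)) (P (Sum.inl j)) (P (Sum.inl k))) (a : ℕ) :
    (univ.filter (fun e : (Fin m ⊕ Fin t) × (Fin m ⊕ Fin t) =>
      e.1 ≠ e.2 ∧ right P e.1 e.2 = a)).card ≤ (3 * t + 1) * (m + t) := by
  have h1 : (univ.filter (fun e : (Fin m ⊕ Fin t) × (Fin m ⊕ Fin t) =>
      e.1 ≠ e.2 ∧ right P e.1 e.2 = a)).card =
      ∑ p : Fin m ⊕ Fin t, (univ.filter (fun q => p ≠ q ∧ right P p q = a)).card := by
    simp only [Finset.card_filter]
    rw [Fintype.sum_prod_type]
  rw [h1, Fintype.sum_sum_type]
  have h2 : ∀ i : Fin m, (univ.filter (fun q => (Sum.inl i : Fin m ⊕ Fin t) ≠ q ∧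
      right P (Sum.inl i) q = a)).card ≤ 2 * t + 1 := by
    intro i
    have h3 : (univ.filter (fun q => (Sum.inl i : Fin m ⊕ Fin t) ≠ q ∧
        right P (Sum.inl i) q = a)).card =
        (univ.filter (fun j : Fin m => i ≠ j ∧ right P (Sum.inl i) (Sum.inl j) = a)).card +
        (univ.filter (fun j : Fin t => right P (Sum.inl i) (Sum.inr j) = a)).card := by
      simp only [Finset.card_filter]
      rw [Fintype.sum_sum_type]
      simp
    rw [h3]
    have h4 := row P hc a i
    have h5 : (univ.filter (fun j : Fin t => right P (Sum.inl i) (Sum.inr j) = a)).card ≤ t := by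
      refine (Finset.card_filter_le _ _).trans ?_
      simp
    omega
  have h6 : ∀ j : Fin t, (univ.filter (fun q => (Sum.inr j : Fin m ⊕ Fin t) ≠ q ∧
      right P (Sum.inr j) q = a)).card ≤ m + t := by
    intro j
    refine (Finset.card_filter_le _ _).trans ?_
    simp
  have h7 : ∑ i : Fin m, (univ.filter (fun q => (Sum.inl i : Fin m ⊕ Fin t) ≠ q ∧
      right P (Sum.inl i) q = a)).card ≤ m * (2 * t + 1) := by
    refine (Finset.sum_le_sum (fun i _ => h2 i)).trans ?_
    simp
  have h8 : ∑ j : Fin t, (univ.filter (fun q => (Sum.inr j : Fin m ⊕ Fin t) ≠ q ∧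
      right P (Sum.inr j) q = a)).card ≤ t * (m + t) := by
    refine (Finset.sum_le_sum (fun j _ => h6 j)).trans ?_
    simp
  nlinarith [h7, h8]

end Vale.Agent.P065
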