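import Vale.Agent.Lib.P065.Conv

/-! P065: halving lines of point sets that are nearly in convex position. -/

open Finset

namespace Vale.Agent.P065

theorem right_add {ι : Type} [Fintype ι] (P : ι → ℝ × ℝ)
    (hgen : ∀ p q r : ι, p ≠ q → q ≠ r → p ≠ r → orient (P p) (P q) (P r) ≠ 0) {p q : ι}
    (hpq : p ≠ q) : right P p q + right P q p + 2 = Fintype.card ι := by
  classical
  have h1 := Finset.card_filter_add_card_filter_not (s := (univ : Finset ι))
    (fun r => orient (P p) (P q) (P r) < 0)
  have h2 : univ.filter (fun r => ¬ orient (P p) (P q) (P r) < 0) =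
      univ.filter (fun r => orient (P q) (P p) (P r) < 0) ∪ {p, q} := by
    ext r
    simp only [Finset.mem_filter, Finset.mem_univ, true_and, Finset.mem_union,
      Finset.mem_insert, Finset.mem_singleton]
    rw [orient_swap' (P p) (P q) (P r)]
    constructor
    · intro h
      by_cases h3 : r = p
      · exact Or.inr (Or.inl h3)
      · by_cases h4 : r = q
        · exact Or.inr (Or.inr h4)
        · have h5 := hgen p q r hpq (Ne.symm h4) (Ne.symm h3)
          left
          have h6 : 0 < orient (P p) (P q) (P r) := lt_of_le_of_ne (not_lt.1 h) (Ne.symm h5)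
          linarith
    · rintro (h | h | h)
      · linarith
      · rw [h, orient_left]; exact lt_irrefl _
      · rw [h, orient_right]; exact lt_irrefl _
  have h3 : Disjoint (univ.filter (fun r => orient (P q) (P p) (P r) < 0)) {p, q} := by
    rw [Finset.disjoint_left]
    intro r hr hr2
    simp only [Finset.mem_filter, Finset.mem_univ, true_and] at hr
    simp only [Finset.mem_insert, Finset.mem_singleton] at hr2
    rcases hr2 with h | h
    · rw [h, orient_right] at hr; exact lt_irrefl _ hr
    · rw [h, orient_left] at hr; exact lt_irrefl _ hr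
  rw [h2, Finset.card_union_of_disjoint h3, Finset.card_pair hpq, Finset.card_univ] at h1
  unfold right
  omega

theorem halving {m t : ℕ} (P : Fin m ⊕ Fin t → ℝ × ℝ)
    (hc : ∀ i j k : Fin m, i < j → j < k →
      0 < orient (P (Sum.inl i)) (P (Sum.inl j)) (P (Sum.inl k)))
    (hgen : ∀ p q r : Fin m ⊕ Fin t, p ≠ q → q ≠ r → p ≠ r →
      orient (P p) (P q) (P r) ≠ 0) :
    (univ.filter (fun e : (Fin m ⊕ Fin t) × (Fin m ⊕ Fin t) =>
      e.1 ≠ e.2 ∧ right P e.1 e.2 = right P e.2 e.1)).card ≤ (3 * t + 1) * (m + t) := by
  refine le_trans ?_ (main P hc ((m + t - 2) / 2))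
  apply Finset.card_le_card
  intro e he
  simp only [Finset.mem_filter, Finset.mem_univ, true_and] at he ⊢
  refine ⟨he.1, ?_⟩
  have h1 := right_add P hgen he.1
  rw [Fintype.card_sum, Fintype.card_fin, Fintype.card_fin] at h1
  have h2 := he.2
  omega

end Vale.Agent.P065
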